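import Mathlib
import Vale.Agent.P075.Form
import Vale.Agent.P075.Final

namespace Vale.Agent.Results.P075.DyadicTHTBounded

open _root_.P075

/-- Question Q2 of P075: the dyadic triangular Hilbert form is bounded on
`L^3 × L^3 × L^3`, uniformly over all finite sets of scales `S ⊂ ℤ` and all real coefficients
`|ε_k| ≤ 1` (first clause).  The last two clauses give more: for every scale the series over `𝒜_k`
converges absolutely and the sum of the absolute values of all the single-cube forms `L_I` is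
bounded by the same constant. -/
theorem result : ∃ C : ℝ, ∀ F : Fin 3 → ℝ × ℝ → ℝ,
    (∀ v, Measurable (F v)) → (∀ v, ∃ M : ℝ, ∀ x, |F v x| ≤ M) →
    (∀ v, HasCompactSupport (F v)) →
    (∀ (S : Finset ℤ) (ε : ℤ → ℝ), (∀ k ∈ S, |ε k| ≤ 1) →
        |Lam S ε F| ≤ C * ∏ v, norm3 (F v)) ∧
    (∀ k : ℤ, Summable fun n : XorTriple => |LI k n.1 F|) ∧
    (∀ S : Finset ℤ, ∑ k ∈ S, ∑' n : XorTriple, |LI k n.1 F| ≤ C * ∏ v, norm3 (F v)) := by
  obtain ⟨C, _, h⟩ := main_bound
  refine ⟨C, fun F hm hb hc => ?_⟩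
  obtain ⟨h1, h2, h3⟩ := h F hm hb hc
  refine ⟨fun S ε hε => ?_, h1, h2⟩
  classical
  have e : Lam S ε F = Lam S (fun k => if k ∈ S then ε k else 0) F :=
    Lam_congr S _ _ F fun k hk => by simp [hk]
  rw [e]
  refine h3 S _ fun k => ?_
  by_cases hk : k ∈ S
  · simp only [hk, if_true]; exact hε k hk
  · simp [hk]

end Vale.Agent.Results.P075.DyadicTHTBounded
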